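import Vale.Agent.Lib.P043.Independent

/-!
# P043: periods forced by the tile, the periodic tiling conjecture for tiles whose balanced
directions are linearly independent, and two elementary necessary conditions for a direction to
be balanced (all dimensions).  The four clauses together imply the other hand-ins of this folder.
-/

namespace Vale.Agent.Results.P043.AllResults

open Vale.Agent.P043

theorem result (d : ℕ) (F : Finset (Fin d → ℤ)) :
    (∃ m : ℕ, 0 < m ∧ ∀ A : Set (Fin d → ℤ), IsTiling A F → ∀ w : Fin d → ℤ,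
        (∀ l : (Fin d → ℤ) →+ ℤ, Balanced F l → l w = 0) → ∀ x, x + m • w ∈ A ↔ x ∈ A) ∧
    (∀ (J : ℕ) (l : Fin J → ((Fin d → ℤ) →+ ℤ)), LinearIndependent ℤ l →
        (∀ f : (Fin d → ℤ) →+ ℤ, Balanced F f → ∃ j, ∃ a b : ℤ, a ≠ 0 ∧ a • f = b • l j) →
        (∃ A : Set (Fin d → ℤ), IsTiling A F) →
        ∃ A : Set (Fin d → ℤ), IsTiling A F ∧ IsPeriodic A) ∧
    (∀ f : (Fin d → ℤ) →+ ℤ, Balanced F f → ∀ x ∈ F, ∃ y ∈ F, y ≠ x ∧ f y = f x) ∧
    (∀ p k : ℕ, p.Prime → F.card = p ^ k → ∀ f : (Fin d → ℤ) →+ ℤ, Balanced F f →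
        ∀ s : ℤ, p ∣ (F.filter (fun x => f x = s)).card) :=
  ⟨key_periods F, fun _ l hind h hT => independent_directions F l hind h hT,
    fun _ hf => hf.paired, fun _ _ hp hF _ hf s => hf.dvd_card hp hF s⟩

end Vale.Agent.Results.P043.AllResults
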