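import Vale.Agent.Lib.P043.Main

/-!
# P043: periods forced by the tile, and the periodic tiling conjecture for tiles with at most
one balanced direction (all dimensions)
-/

namespace Vale.Agent.Results.P043.BalancedDirections

open Vale.Agent.P043

theorem result (d : ℕ) (F : Finset (Fin d → ℤ)) :
    (∃ m : ℕ, 0 < m ∧ ∀ A : Set (Fin d → ℤ), IsTiling A F → ∀ w : Fin d → ℤ,
        (∀ l : (Fin d → ℤ) →+ ℤ, Balanced F l → l w = 0) → ∀ x, x + m • w ∈ A ↔ x ∈ A) ∧
    ((∀ l : (Fin d → ℤ) →+ ℤ, Balanced F l → l = 0) →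
        ∀ A : Set (Fin d → ℤ), IsTiling A F → IsPeriodic A) ∧
    (∀ l0 : (Fin d → ℤ) →+ ℤ,
        (∀ l : (Fin d → ℤ) →+ ℤ, Balanced F l → ∃ a b : ℤ, a ≠ 0 ∧ a • l = b • l0) →
        (∃ A : Set (Fin d → ℤ), IsTiling A F) →
        ∃ A : Set (Fin d → ℤ), IsTiling A F ∧ IsPeriodic A) :=
  ⟨key_periods F, forced_periodicity F, one_direction F⟩

end Vale.Agent.Results.P043.BalancedDirections
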