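import Vale.Agent.Lib.P043.Independent

/-!
# P043: the periodic tiling conjecture for tiles whose balanced directions are linearly
independent (all dimensions)
-/

namespace Vale.Agent.Results.P043.IndependentDirections

open Vale.Agent.P043

theorem result (d : ℕ) (F : Finset (Fin d → ℤ)) (J : ℕ) (l : Fin J → ((Fin d → ℤ) →+ ℤ))
    (hind : LinearIndependent ℤ l)
    (hF : ∀ f : (Fin d → ℤ) →+ ℤ, Balanced F f → ∃ j, ∃ a b : ℤ, a ≠ 0 ∧ a • f = b • l j)
    (hT : ∃ A : Set (Fin d → ℤ), IsTiling A F) :
    ∃ A : Set (Fin d → ℤ), IsTiling A F ∧ IsPeriodic A :=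
  independent_directions F l hind hF hT

end Vale.Agent.Results.P043.IndependentDirections
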