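import Vale.Agent.Lib.P043.Independent

/-!
# P043: the periodic tiling conjecture for tiles of prime power size whose directions with all
level sets of size divisible by the prime are linearly independent (all dimensions)
-/

namespace Vale.Agent.Results.P043.PrimePowerTiles

open Vale.Agent.P043

theorem result (d p k : ℕ) (hp : p.Prime) (F : Finset (Fin d → ℤ)) (hF : F.card = p ^ k) :
    ((∀ f : (Fin d → ℤ) →+ ℤ, (∀ s : ℤ, p ∣ (F.filter (fun x => f x = s)).card) → f = 0) →
        ∀ A : Set (Fin d → ℤ), IsTiling A F → IsPeriodic A) ∧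
    (∀ (J : ℕ) (l : Fin J → ((Fin d → ℤ) →+ ℤ)), LinearIndependent ℤ l →
        (∀ f : (Fin d → ℤ) →+ ℤ, (∀ s : ℤ, p ∣ (F.filter (fun x => f x = s)).card) →
          ∃ j, ∃ a b : ℤ, a ≠ 0 ∧ a • f = b • l j) →
        (∃ A : Set (Fin d → ℤ), IsTiling A F) →
        ∃ A : Set (Fin d → ℤ), IsTiling A F ∧ IsPeriodic A) :=
  ⟨fun h => forced_periodicity F (fun f hf => h f (hf.dvd_card hp hF)),
   fun _ l hind h => independent_directions F l hind (fun f hf => h f (hf.dvd_card hp hF))⟩

end Vale.Agent.Results.P043.PrimePowerTiles
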