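import Vale.Agent.Lib.P043.Independent

/-!
# P043: forced periodicity and the periodic tiling conjecture in terms of singleton level sets
-/

namespace Vale.Agent.Results.P043.SingletonLevels

open Vale.Agent.P043

theorem result (d : ℕ) (F : Finset (Fin d → ℤ)) :
    ((∀ f : (Fin d → ℤ) →+ ℤ, f ≠ 0 → ∃ x ∈ F, ∀ y ∈ F, f y = f x → y = x) →
        ∀ A : Set (Fin d → ℤ), IsTiling A F → IsPeriodic A) ∧
    (∀ (J : ℕ) (l : Fin J → ((Fin d → ℤ) →+ ℤ)), LinearIndependent ℤ l →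
        (∀ f : (Fin d → ℤ) →+ ℤ, (∀ x ∈ F, ∃ y ∈ F, y ≠ x ∧ f y = f x) →
          ∃ j, ∃ a b : ℤ, a ≠ 0 ∧ a • f = b • l j) →
        (∃ A : Set (Fin d → ℤ), IsTiling A F) →
        ∃ A : Set (Fin d → ℤ), IsTiling A F ∧ IsPeriodic A) := by
  refine ⟨fun h => forced_periodicity F (fun f hf => ?_),
    fun _ l hind h => independent_directions F l hind (fun f hf => h f hf.paired)⟩
  by_contra hne
  obtain ⟨x, hx, huniq⟩ := h f hne
  obtain ⟨y, hy, hne', heq⟩ := hf.paired x hx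
  exact hne' (huniq y hy heq)

end Vale.Agent.Results.P043.SingletonLevels
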